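import Vale.Agent.Lib.P062.Part4.A1_0
import Vale.Agent.Lib.P062.Reduce

set_option maxRecDepth 100000
set_option linter.all false

namespace Vale.Agent.Lib.P062.Part4
open Vale.Agent.Lib.P062 Vale.Agent.Lib.P062.V2

theorem alt1 : WinsAt m2 36600066707203943130922525450119261223422425096586172789817195073963937425362001961858787520379713498688167799077765976035115789506562446923552066728824574117587242497585534526948053097647735696545657288392704 :=
  winsAt_of_chk (t := s35435) (by decide +kernel)

end Vale.Agent.Lib.P062.Part4
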