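import Vale.Agent.Lib.P062.Part4.A10_0
import Vale.Agent.Lib.P062.Reduce

set_option maxRecDepth 100000
set_option linter.all false

namespace Vale.Agent.Lib.P062.Part4
open Vale.Agent.Lib.P062 Vale.Agent.Lib.P062.V2

theorem alt10 : WinsAt m2 91796991105477144799486794778023040832437870558598648428098359476698088850559176544705234169579291973652774124275632107371077423600132993473419208987296256760271701590374858283561219180309545918342966605825164756103875044311040 :=
  winsAt_of_chk (t := s45584) (by decide +kernel)

end Vale.Agent.Lib.P062.Part4
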