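import Vale.Agent.Lib.P062.Part4.A11_0
import Vale.Agent.Lib.P062.Reduce

set_option maxRecDepth 100000
set_option linter.all false

namespace Vale.Agent.Lib.P062.Part4
open Vale.Agent.Lib.P062 Vale.Agent.Lib.P062.V2

theorem alt11 : WinsAt m2 3210532167518910318855619001673589012953971945835046024343059682666586426684617429185464922443053639305973880713856806479857130578931034757277367019849727486484374769105494440455172021974087535195854408253440 :=
  winsAt_of_chk (t := s16534) (by decide +kernel)

end Vale.Agent.Lib.P062.Part4
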