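import Vale.Agent.Lib.P062.Part4.A12_0
import Vale.Agent.Lib.P062.Reduce

set_option maxRecDepth 100000
set_option linter.all false

namespace Vale.Agent.Lib.P062.Part4
open Vale.Agent.Lib.P062 Vale.Agent.Lib.P062.V2

theorem alt12 : WinsAt m2 1046514379377475762609997416409848288604138619378133219947877404777736332422229380412283745038545369212347817634016123619212203761775090483561475616490370337984475467425433973779455236055875652157440 :=
  winsAt_of_chk (t := s49272) (by decide +kernel)

end Vale.Agent.Lib.P062.Part4
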