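import Vale.Agent.Lib.P062.Part4.A13_0
import Vale.Agent.Lib.P062.Reduce

set_option maxRecDepth 100000
set_option linter.all false

namespace Vale.Agent.Lib.P062.Part4
open Vale.Agent.Lib.P062 Vale.Agent.Lib.P062.V2

theorem alt13 : WinsAt m2 747510271067514199445332381944983542141661173830258395373919874491313740464493198179676508893265996352653230201237902137114795885295806474388250786958243503760202272508385014273450001255103857688576 :=
  winsAt_of_chk (t := s182) (by decide +kernel)

end Vale.Agent.Lib.P062.Part4
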