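import Vale.Agent.Lib.P062.Part4.A14_0
import Vale.Agent.Lib.P062.Reduce

set_option maxRecDepth 100000
set_option linter.all false

namespace Vale.Agent.Lib.P062.Part4
open Vale.Agent.Lib.P062 Vale.Agent.Lib.P062.V2

theorem alt14 : WinsAt m2 915700081958554604242552649610840416529499901931401325961354819232710756130237343665204499152708500376974354456326120433778148139912088047369051454042081916103826578968487009719797226405136246505472 :=
  winsAt_of_chk (t := s652) (by decide +kernel)

end Vale.Agent.Lib.P062.Part4
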