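import Vale.Agent.Lib.P062.Part4.A15_0
import Vale.Agent.Lib.P062.Reduce

set_option maxRecDepth 100000
set_option linter.all false

namespace Vale.Agent.Lib.P062.Part4
open Vale.Agent.Lib.P062 Vale.Agent.Lib.P062.V2

theorem alt15 : WinsAt m2 14478587195619041518372453929279786994932448301889597093426582075851839141051872355739191384454685108343057512670084450445525393677165765769886532090256417849739254969534463977859229421253311519132980978646411592597504 :=
  winsAt_of_chk (t := s47707) (by decide +kernel)

end Vale.Agent.Lib.P062.Part4
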