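import Vale.Agent.Lib.P062.Part4.A16_0
import Vale.Agent.Lib.P062.Reduce

set_option maxRecDepth 100000
set_option linter.all false

namespace Vale.Agent.Lib.P062.Part4
open Vale.Agent.Lib.P062 Vale.Agent.Lib.P062.V2

theorem alt16 : WinsAt m2 11844773062370494405675335593092815064148101550701264882098437014347068168272949121281084811242899694036007349769666558129769263494680770686099207352867848835792827033387461182146269583960744040072830701253742745526744408653824 :=
  winsAt_of_chk (t := s49105) (by decide +kernel)

end Vale.Agent.Lib.P062.Part4
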