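import Vale.Agent.Lib.P062.Part4.A17_0
import Vale.Agent.Lib.P062.Reduce

set_option maxRecDepth 100000
set_option linter.all false

namespace Vale.Agent.Lib.P062.Part4
open Vale.Agent.Lib.P062 Vale.Agent.Lib.P062.V2

theorem alt17 : WinsAt m2 19304782930488552049602300224453369821768260156768633380480539959842368132024518328068244985340008701632404079831436774295407875883322426988905285212878099206740829414017297880886191825391191957193071952054242307473408 :=
  winsAt_of_chk (t := s29623) (by decide +kernel)

end Vale.Agent.Lib.P062.Part4
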