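import Vale.Agent.Lib.P062.Part4.A2_0
import Vale.Agent.Lib.P062.Reduce

set_option maxRecDepth 100000
set_option linter.all false

namespace Vale.Agent.Lib.P062.Part4
open Vale.Agent.Lib.P062 Vale.Agent.Lib.P062.V2

theorem alt2 : WinsAt m2 642106434340993567246997915019523086291722888479068055307938559042479400693803717936377740914458877651924359128555924854160653329478412928932907102949492176887211883175282049407645798309065667277005279723520 :=
  winsAt_of_chk (t := s48936) (by decide +kernel)

end Vale.Agent.Lib.P062.Part4
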