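import Vale.Agent.Lib.P062.Part4.A3_0
import Vale.Agent.Lib.P062.Reduce

set_option maxRecDepth 100000
set_option linter.all false

namespace Vale.Agent.Lib.P062.Part4
open Vale.Agent.Lib.P062 Vale.Agent.Lib.P062.V2

theorem alt3 : WinsAt m2 66101645131687624976276171591400815891860928124122347071230930283512859824347361616746998695371870360241220292925519695400561183587293903869129324978520841701847988007845670779346683101333499449904156656517246206607360 :=
  winsAt_of_chk (t := s23065) (by decide +kernel)

end Vale.Agent.Lib.P062.Part4
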