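import Vale.Agent.Lib.P062.Part4.A4_0
import Vale.Agent.Lib.P062.Reduce

set_option maxRecDepth 100000
set_option linter.all false

namespace Vale.Agent.Lib.P062.Part4
open Vale.Agent.Lib.P062 Vale.Agent.Lib.P062.V2

theorem alt4 : WinsAt m2 353862594837916638801764932566728656532989790737287538163632998171662122413454825767749012921831251671627247226979711015285011278530188065658262681824766352096233752681380457321794757832119799955429318289624464143143064167251968 :=
  winsAt_of_chk (t := s6006) (by decide +kernel)

end Vale.Agent.Lib.P062.Part4
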