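import Vale.Agent.Lib.P062.Part4.A5_0
import Vale.Agent.Lib.P062.Reduce

set_option maxRecDepth 100000
set_option linter.all false

namespace Vale.Agent.Lib.P062.Part4
open Vale.Agent.Lib.P062 Vale.Agent.Lib.P062.V2

theorem alt5 : WinsAt m2 747510271034881081354087296450295525351198444206015973986088668401982743628037084583930060004069462611301261630770437573697789742432913285528296682008948161135081565225704717014586704757689566625792 :=
  winsAt_of_chk (t := s10892) (by decide +kernel)

end Vale.Agent.Lib.P062.Part4
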