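import Vale.Agent.Lib.P062.Part4.A6_0
import Vale.Agent.Lib.P062.Reduce

set_option maxRecDepth 100000
set_option linter.all false

namespace Vale.Agent.Lib.P062.Part4
open Vale.Agent.Lib.P062 Vale.Agent.Lib.P062.V2

theorem alt6 : WinsAt m2 11376032797704436969391387079708364394662023189776202853429937233965904621766298799103265863643601202912096623820149772638086274638949507217620551471163660155002325155668368577424766828601515371283585013323512917524480 :=
  winsAt_of_chk (t := s31555) (by decide +kernel)

end Vale.Agent.Lib.P062.Part4
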