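import Vale.Agent.Lib.P062.Part4.A7_0
import Vale.Agent.Lib.P062.Reduce

set_option maxRecDepth 100000
set_option linter.all false

namespace Vale.Agent.Lib.P062.Part4
open Vale.Agent.Lib.P062 Vale.Agent.Lib.P062.V2

theorem alt7 : WinsAt m2 4826195735190563745606523443687023413080314601948404114806139899917205802360570854791779967396512994550280223811147186823875402595221733113534290834620822630001430134261165381869097824552610464649562778555707557937152 :=
  winsAt_of_chk (t := s41231) (by decide +kernel)

end Vale.Agent.Lib.P062.Part4
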