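import Vale.Agent.Lib.P062.Part4.A8_0
import Vale.Agent.Lib.P062.Reduce

set_option maxRecDepth 100000
set_option linter.all false

namespace Vale.Agent.Lib.P062.Part4
open Vale.Agent.Lib.P062 Vale.Agent.Lib.P062.V2

theorem alt8 : WinsAt m2 206676416801226240454428056310142332487902003274535795612519488070996182175982212133977364205034261996557096276047222786517046981451087504395143047656165863464691776271114178123325557964800 :=
  winsAt_of_chk (t := s49339) (by decide +kernel)

end Vale.Agent.Lib.P062.Part4
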