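import Vale.Agent.Lib.P062.Part4.A9_0
import Vale.Agent.Lib.P062.Reduce

set_option maxRecDepth 100000
set_option linter.all false

namespace Vale.Agent.Lib.P062.Part4
open Vale.Agent.Lib.P062 Vale.Agent.Lib.P062.V2

theorem alt9 : WinsAt m2 47379092191567628846646240632835375285675034608229010964946356560099683395198736246351409235925358195583234185209879288959371890077805154668146387742110739572500552210377336231309436440468688977992229204679707244364592714874880 :=
  winsAt_of_chk (t := s46357) (by decide +kernel)

end Vale.Agent.Lib.P062.Part4
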